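import Mathlib

namespace Vale.Agent.Results.P045.AllButTwoParts

open Finset

/-- `M` is a matching: two distinct edges of `M` differ in every part (are disjoint). -/
def IsMatching {r : ℕ} (M : Finset (Fin r → ℕ)) : Prop :=
  ∀ e ∈ M, ∀ f ∈ M, e ≠ f → ∀ i, e i ≠ f i

/-- `C` is a vertex cover of `H`: every edge `e` of `H` contains a vertex `(i, e i)` of `C`. -/
def IsCover {r : ℕ} (C : Finset (Fin r × ℕ)) (H : Finset (Fin r → ℕ)) : Prop :=
  ∀ e ∈ H, ∃ i, (i, e i) ∈ C

/-- Ryser's inequality for `H`, witnessed by a vertex cover `C` and a matching `M ⊆ H`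
with `|C| ≤ (r - 1) |M|` (so that `τ(H) ≤ (r - 1) ν(H)`). -/
def RyserFor {r : ℕ} (H : Finset (Fin r → ℕ)) : Prop :=
  ∃ (C : Finset (Fin r × ℕ)) (M : Finset (Fin r → ℕ)),
    M ⊆ H ∧ IsMatching M ∧ IsCover C H ∧ C.card ≤ (r - 1) * M.card

/-- All parts except the last `s` have nested links: lowering the vertex of an edge inside
any part `i` with `i + s < r` gives an edge again. -/
def NestedAllBut (s : ℕ) {r : ℕ} (H : Finset (Fin r → ℕ)) : Prop :=
  ∀ e ∈ H, ∀ i : Fin r, (i : ℕ) + s < r → ∀ t, t ≤ e i → Function.update e i t ∈ H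

/-- Peeling one nested part. -/
private lemma step (r : ℕ) (hr : 1 ≤ r) (H : Finset (Fin (r + 1) → ℕ))
    (hnest : ∀ e ∈ H, ∀ t, t ≤ e 0 → Function.update e 0 t ∈ H)
    (hlink : ∀ k, RyserFor ((H.filter (fun e => e 0 = k)).image Fin.tail)) :
    RyserFor H := by
  classical
  -- a maximum matching
  have hne : (H.powerset.filter (fun M : Finset (Fin (r + 1) → ℕ) => IsMatching M)).Nonempty :=
    ⟨∅, Finset.mem_filter.2 ⟨Finset.empty_mem_powerset _, by
      intro e he
      simp at he⟩⟩
  obtain ⟨M, hM, hmax⟩ := Finset.exists_max_image _ Finset.card hne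
  rw [Finset.mem_filter, Finset.mem_powerset] at hM
  obtain ⟨hMH, hMm⟩ := hM
  obtain ⟨C', M', hM'L, hM'm, hC', hcard⟩ := hlink M.card
  -- the matching of the link is not larger than `M`
  have hM'k : M'.card ≤ M.card := by
    by_contra hlt
    push Not at hlt
    obtain ⟨T, hTM, hTc⟩ := Finset.exists_subset_card_eq (show M.card + 1 ≤ M'.card by omega)
    let φ := T.equivFin
    let lift : {x // x ∈ T} → (Fin (r + 1) → ℕ) := fun x => Fin.cons ((φ x : ℕ)) x.1
    have inj : Function.Injective lift := by
      intro x y h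
      have h2 := congrArg Fin.tail h
      simp only [lift, Fin.tail_cons] at h2
      exact Subtype.ext h2
    have hcardM2 : (Finset.univ.image lift).card = M.card + 1 := by
      rw [Finset.card_image_of_injective _ inj, Finset.card_univ, Fintype.card_coe, hTc]
    have hM2H : Finset.univ.image lift ⊆ H := by
      intro e he
      obtain ⟨x, _, rfl⟩ := Finset.mem_image.1 he
      have hx := hM'L (hTM x.2)
      obtain ⟨e0, he0, he0t⟩ := Finset.mem_image.1 hx
      have he0H := (Finset.mem_filter.1 he0).1
      have he0k := (Finset.mem_filter.1 he0).2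
      have hlt2 : (φ x : ℕ) ≤ e0 0 := by
        rw [he0k]
        have := (φ x).2
        omega
      have h3 := hnest e0 he0H (φ x) hlt2
      have h4 : Function.update e0 0 (φ x : ℕ) = lift x := by
        funext i
        refine Fin.cases ?_ (fun j => ?_) i
        · simp [lift]
        · simp only [lift, Fin.cons_succ]
          rw [Function.update_of_ne (Fin.succ_ne_zero j)]
          rw [← he0t]
          rfl
      rw [← h4]
      exact h3
    have hM2m : IsMatching (Finset.univ.image lift) := by
      intro e he f hf hef i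
      obtain ⟨x, _, rfl⟩ := Finset.mem_image.1 he
      obtain ⟨y, _, rfl⟩ := Finset.mem_image.1 hf
      have hxy : x ≠ y := fun h => hef (by rw [h])
      refine Fin.cases ?_ (fun j => ?_) i
      · simp only [lift, Fin.cons_zero]
        intro h
        exact hxy (φ.injective (Fin.ext h))
      · simp only [lift, Fin.cons_succ]
        exact hM'm x.1 (hTM x.2) y.1 (hTM y.2) (fun h => hxy (Subtype.ext h)) j
    have hle := hmax _ (Finset.mem_filter.2 ⟨Finset.mem_powerset.2 hM2H, hM2m⟩)
    rw [hcardM2] at hle
    omega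
  -- the cover
  refine ⟨(Finset.range M.card).image (fun t => ((0 : Fin (r + 1)), t))
      ∪ C'.image (fun p => (p.1.succ, p.2)), M, hMH, hMm, ?_, ?_⟩
  · intro e he
    by_cases h : e 0 < M.card
    · refine ⟨0, ?_⟩
      apply Finset.mem_union_left
      exact Finset.mem_image.2 ⟨e 0, Finset.mem_range.2 h, rfl⟩
    · have hk : M.card ≤ e 0 := by omega
      have h1 := hnest e he M.card hk
      have h2 : Fin.tail e ∈ (H.filter (fun e => e 0 = M.card)).image Fin.tail := by
        refine Finset.mem_image.2 ⟨Function.update e 0 M.card,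
          Finset.mem_filter.2 ⟨h1, by simp⟩, ?_⟩
        funext j
        simp only [Fin.tail]
        rw [Function.update_of_ne (Fin.succ_ne_zero j)]
      obtain ⟨j, hj⟩ := hC' _ h2
      refine ⟨j.succ, ?_⟩
      apply Finset.mem_union_right
      exact Finset.mem_image.2 ⟨(j, Fin.tail e j), hj, rfl⟩
  · have hr' : r + 1 - 1 = r := by omega
    rw [hr']
    calc ((Finset.range M.card).image (fun t => ((0 : Fin (r + 1)), t))
          ∪ C'.image (fun p => (p.1.succ, p.2))).card
        ≤ ((Finset.range M.card).image (fun t => ((0 : Fin (r + 1)), t))).card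
            + (C'.image (fun p => (p.1.succ, p.2))).card := Finset.card_union_le _ _
      _ ≤ M.card + C'.card := by
          apply add_le_add
          · exact Finset.card_image_le.trans (by simp)
          · exact Finset.card_image_le
      _ ≤ M.card + (r - 1) * M'.card := by omega
      _ ≤ M.card + (r - 1) * M.card := by
          have := Nat.mul_le_mul_left (r - 1) hM'k
          omega
      _ = r * M.card := by
          obtain ⟨q, rfl⟩ : ∃ q, r = q + 1 := ⟨r - 1, by omega⟩
          simp only [Nat.add_sub_cancel]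
          ring

/-- **Reduction.** If Ryser's inequality holds for all `s`-partite hypergraphs, then it
holds for all `(s + d)`-partite hypergraphs in which all parts but the last `s` have nested
links. -/
private lemma reduction_aux (s : ℕ) (hs : 1 ≤ s)
    (hbase : ∀ H : Finset (Fin s → ℕ), RyserFor H) :
    ∀ (d : ℕ) (H : Finset (Fin (s + d) → ℕ)), NestedAllBut s H → RyserFor H := by
  classical
  intro d
  induction d with
  | zero => intro H _; exact hbase H
  | succ d ih =>
    intro H hH
    apply step (s + d) (by omega) H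
    · intro e he t ht
      exact hH e he 0 (by rw [Fin.val_zero]; omega) t ht
    · intro k
      apply ih
      intro e' he' j hj t ht
      obtain ⟨e0, he0, rfl⟩ := Finset.mem_image.1 he'
      have he0H := (Finset.mem_filter.1 he0).1
      have he0k := (Finset.mem_filter.1 he0).2
      have h1 := hH e0 he0H j.succ (by rw [Fin.val_succ]; omega) t ht
      refine Finset.mem_image.2 ⟨Function.update e0 j.succ t, Finset.mem_filter.2 ⟨h1, ?_⟩, ?_⟩
      · rw [Function.update_of_ne (Fin.succ_ne_zero j).symm]
        exact he0k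
      · funext i
        simp only [Fin.tail]
        by_cases hij : i = j
        · subst hij; simp
        · rw [Function.update_of_ne hij,
            Function.update_of_ne (fun h => hij (Fin.succ_injective _ h))]
          rfl

/-- König's theorem for a bipartite graph given as a finite set of pairs: a vertex cover
`(A, B)` together with injections witnessing a matching of size `|A| + |B|`. -/
private lemma konig_pairs (E : Finset (ℕ × ℕ)) :
    ∃ (A B : Finset ℕ) (f : {a // a ∈ A} → ℕ) (g : {b // b ∈ B} → ℕ),
      (∀ p ∈ E, p.1 ∈ A ∨ p.2 ∈ B) ∧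
      Function.Injective f ∧ Function.Injective g ∧
      (∀ a : {a // a ∈ A}, ((a : ℕ), f a) ∈ E ∧ f a ∉ B) ∧
      (∀ b : {b // b ∈ B}, (g b, (b : ℕ)) ∈ E ∧ g b ∉ A) := by
  classical
  -- a minimum vertex cover
  set 𝒞 : Finset (Finset ℕ × Finset ℕ) :=
    ((E.image Prod.fst).powerset ×ˢ (E.image Prod.snd).powerset).filter
      (fun AB => ∀ p ∈ E, p.1 ∈ AB.1 ∨ p.2 ∈ AB.2) with h𝒞
  have hmem : ∀ A B : Finset ℕ, (A, B) ∈ 𝒞 ↔
      (A ⊆ E.image Prod.fst ∧ B ⊆ E.image Prod.snd) ∧ ∀ p ∈ E, p.1 ∈ A ∨ p.2 ∈ B := by
    intro A B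
    simp only [h𝒞, Finset.mem_filter, Finset.mem_product, Finset.mem_powerset]
  have hne : 𝒞.Nonempty := ⟨(E.image Prod.fst, ∅), (hmem _ _).2
    ⟨⟨subset_rfl, Finset.empty_subset _⟩, fun p hp => Or.inl (Finset.mem_image_of_mem _ hp)⟩⟩
  obtain ⟨⟨A, B⟩, hAB, hmin⟩ :=
    Finset.exists_min_image 𝒞 (fun AB => AB.1.card + AB.2.card) hne
  obtain ⟨⟨hA, hB⟩, hcov⟩ := (hmem A B).1 hAB
  -- Hall's condition on the side `A`
  have hallA : ∀ S : Finset {a // a ∈ A}, S.card ≤ (S.biUnion (fun a =>
      (E.filter (fun p => p.1 = a.1 ∧ p.2 ∉ B)).image Prod.snd)).card := by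
    intro S
    by_contra hlt
    push Not at hlt
    set N := S.biUnion (fun a =>
      (E.filter (fun p => p.1 = a.1 ∧ p.2 ∉ B)).image Prod.snd) with hN
    set S' := S.image Subtype.val with hS'
    have hS'A : S' ⊆ A := by
      intro a ha
      obtain ⟨x, _, rfl⟩ := Finset.mem_image.1 ha
      exact x.2
    have hS'card : S'.card = S.card := Finset.card_image_of_injective _ Subtype.val_injective
    have hnew : (A \ S', B ∪ N) ∈ 𝒞 := by
      refine (hmem _ _).2 ⟨⟨Finset.sdiff_subset.trans hA, Finset.union_subset hB ?_⟩, ?_⟩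
      · intro b hb
        rw [hN, Finset.mem_biUnion] at hb
        obtain ⟨a, _, hb⟩ := hb
        obtain ⟨p, hp, rfl⟩ := Finset.mem_image.1 hb
        exact Finset.mem_image_of_mem _ (Finset.mem_filter.1 hp).1
      · intro p hp
        by_cases hpb : p.2 ∈ B
        · right; exact Finset.mem_union_left _ hpb
        · have hpa : p.1 ∈ A := (hcov p hp).resolve_right hpb
          by_cases hps : p.1 ∈ S'
          · right
            apply Finset.mem_union_right
            obtain ⟨x, hx, hxe⟩ := Finset.mem_image.1 hps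
            rw [hN, Finset.mem_biUnion]
            exact ⟨x, hx, Finset.mem_image.2 ⟨p, Finset.mem_filter.2 ⟨hp, hxe.symm, hpb⟩, rfl⟩⟩
          · left; exact Finset.mem_sdiff.2 ⟨hpa, hps⟩
    have h0 := hmin _ hnew
    have h1 : (A \ S').card = A.card - S'.card := Finset.card_sdiff_of_subset hS'A
    have h2 : (B ∪ N).card ≤ B.card + N.card := Finset.card_union_le _ _
    have h3 : S'.card ≤ A.card := Finset.card_le_card hS'A
    simp only at h0
    omega
  obtain ⟨f, hfinj, hf⟩ := (Finset.all_card_le_biUnion_card_iff_exists_injective _).1 hallA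
  -- Hall's condition on the side `B`
  have hallB : ∀ S : Finset {b // b ∈ B}, S.card ≤ (S.biUnion (fun b =>
      (E.filter (fun p => p.2 = b.1 ∧ p.1 ∉ A)).image Prod.fst)).card := by
    intro S
    by_contra hlt
    push Not at hlt
    set N := S.biUnion (fun b =>
      (E.filter (fun p => p.2 = b.1 ∧ p.1 ∉ A)).image Prod.fst) with hN
    set S' := S.image Subtype.val with hS'
    have hS'B : S' ⊆ B := by
      intro a ha
      obtain ⟨x, _, rfl⟩ := Finset.mem_image.1 ha
      exact x.2
    have hS'card : S'.card = S.card := Finset.card_image_of_injective _ Subtype.val_injective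
    have hnew : (A ∪ N, B \ S') ∈ 𝒞 := by
      refine (hmem _ _).2 ⟨⟨Finset.union_subset hA ?_, Finset.sdiff_subset.trans hB⟩, ?_⟩
      · intro b hb
        rw [hN, Finset.mem_biUnion] at hb
        obtain ⟨a, _, hb⟩ := hb
        obtain ⟨p, hp, rfl⟩ := Finset.mem_image.1 hb
        exact Finset.mem_image_of_mem _ (Finset.mem_filter.1 hp).1
      · intro p hp
        by_cases hpa : p.1 ∈ A
        · left; exact Finset.mem_union_left _ hpa
        · have hpb : p.2 ∈ B := (hcov p hp).resolve_left hpa
          by_cases hps : p.2 ∈ S'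
          · left
            apply Finset.mem_union_right
            obtain ⟨x, hx, hxe⟩ := Finset.mem_image.1 hps
            rw [hN, Finset.mem_biUnion]
            exact ⟨x, hx, Finset.mem_image.2 ⟨p, Finset.mem_filter.2 ⟨hp, hxe.symm, hpa⟩, rfl⟩⟩
          · right; exact Finset.mem_sdiff.2 ⟨hpb, hps⟩
    have h0 := hmin _ hnew
    have h1 : (B \ S').card = B.card - S'.card := Finset.card_sdiff_of_subset hS'B
    have h2 : (A ∪ N).card ≤ A.card + N.card := Finset.card_union_le _ _
    have h3 : S'.card ≤ B.card := Finset.card_le_card hS'B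
    simp only at h0
    omega
  obtain ⟨g, hginj, hg⟩ := (Finset.all_card_le_biUnion_card_iff_exists_injective _).1 hallB
  refine ⟨A, B, f, g, hcov, hfinj, hginj, ?_, ?_⟩
  · intro a
    obtain ⟨p, hp, hpe⟩ := Finset.mem_image.1 (hf a)
    obtain ⟨hpE, hp1, hp2⟩ := Finset.mem_filter.1 hp
    have : p = ((a : ℕ), f a) := Prod.ext hp1 hpe
    rw [← this]
    exact ⟨hpE, by rw [this] at hp2; exact hp2⟩
  · intro b
    obtain ⟨p, hp, hpe⟩ := Finset.mem_image.1 (hg b)
    obtain ⟨hpE, hp1, hp2⟩ := Finset.mem_filter.1 hp
    have : p = (g b, (b : ℕ)) := Prod.ext hpe hp1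
    rw [← this]
    exact ⟨hpE, by rw [this] at hp2; exact hp2⟩

/-- König's theorem in the encoding used here: Ryser's inequality for `r = 2`. -/
private lemma konig (H : Finset (Fin 2 → ℕ)) : RyserFor H := by
  classical
  obtain ⟨A, B, f, g, hcov, hf, hg, hfE, hgE⟩ := konig_pairs (H.image (fun e => (e 0, e 1)))
  have key : ∀ a b : ℕ, (a, b) ∈ H.image (fun e => (e 0, e 1)) → ![a, b] ∈ H := by
    intro a b hab
    obtain ⟨e, he, hee⟩ := Finset.mem_image.1 hab
    have h0 : e 0 = a := congrArg Prod.fst hee
    have h1 : e 1 = b := congrArg Prod.snd hee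
    have : e = ![a, b] := by
      funext i
      fin_cases i
      · simpa using h0
      · simpa using h1
    rw [← this]
    exact he
  set MA : Finset (Fin 2 → ℕ) :=
    Finset.univ.image (fun a : {a // a ∈ A} => ![(a : ℕ), f a]) with hMA
  set MB : Finset (Fin 2 → ℕ) :=
    Finset.univ.image (fun b : {b // b ∈ B} => ![g b, (b : ℕ)]) with hMB
  have injA : Function.Injective (fun a : {a // a ∈ A} => ![(a : ℕ), f a]) := by
    intro a a' h
    have := congrFun h 0
    exact Subtype.ext (by simpa using this)
  have injB : Function.Injective (fun b : {b // b ∈ B} => ![g b, (b : ℕ)]) := by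
    intro b b' h
    have := congrFun h 1
    exact Subtype.ext (by simpa using this)
  have hdisj : Disjoint MA MB := by
    rw [Finset.disjoint_left]
    intro e he he'
    obtain ⟨a, _, rfl⟩ := Finset.mem_image.1 he
    obtain ⟨b, _, hb⟩ := Finset.mem_image.1 he'
    have h0 := congrFun hb 0
    simp only [Matrix.cons_val_zero] at h0
    exact (hgE b).2 (h0 ▸ a.2)
  refine ⟨A.image (fun a => ((0 : Fin 2), a)) ∪ B.image (fun b => ((1 : Fin 2), b)),
    MA ∪ MB, ?_, ?_, ?_, ?_⟩
  · intro e he
    rcases Finset.mem_union.1 he with h | h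
    · obtain ⟨a, _, rfl⟩ := Finset.mem_image.1 h
      exact key _ _ (hfE a).1
    · obtain ⟨b, _, rfl⟩ := Finset.mem_image.1 h
      exact key _ _ (hgE b).1
  · intro e he e' he' hne i
    rcases Finset.mem_union.1 he with h | h <;> rcases Finset.mem_union.1 he' with h' | h'
    · obtain ⟨a, _, rfl⟩ := Finset.mem_image.1 h
      obtain ⟨a', _, rfl⟩ := Finset.mem_image.1 h'
      have haa : a ≠ a' := fun hh => hne (by rw [hh])
      fin_cases i
      · simp only [Fin.zero_eta, Matrix.cons_val_zero]
        exact fun hh => haa (Subtype.ext hh)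
      · simp only [Fin.mk_one, Matrix.cons_val_one, Matrix.cons_val_zero]
        exact fun hh => haa (hf hh)
    · obtain ⟨a, _, rfl⟩ := Finset.mem_image.1 h
      obtain ⟨b, _, rfl⟩ := Finset.mem_image.1 h'
      fin_cases i
      · simp only [Fin.zero_eta, Matrix.cons_val_zero]
        exact fun hh => (hgE b).2 (hh ▸ a.2)
      · simp only [Fin.mk_one, Matrix.cons_val_one, Matrix.cons_val_zero]
        exact fun hh => (hfE a).2 (hh ▸ b.2)
    · obtain ⟨b, _, rfl⟩ := Finset.mem_image.1 h
      obtain ⟨a, _, rfl⟩ := Finset.mem_image.1 h'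
      fin_cases i
      · simp only [Fin.zero_eta, Matrix.cons_val_zero]
        exact fun hh => (hgE b).2 (hh ▸ a.2)
      · simp only [Fin.mk_one, Matrix.cons_val_one, Matrix.cons_val_zero]
        exact fun hh => (hfE a).2 (hh ▸ b.2)
    · obtain ⟨b, _, rfl⟩ := Finset.mem_image.1 h
      obtain ⟨b', _, rfl⟩ := Finset.mem_image.1 h'
      have hbb : b ≠ b' := fun hh => hne (by rw [hh])
      fin_cases i
      · simp only [Fin.zero_eta, Matrix.cons_val_zero]
        exact fun hh => hbb (hg hh)
      · simp only [Fin.mk_one, Matrix.cons_val_one, Matrix.cons_val_zero]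
        exact fun hh => hbb (Subtype.ext hh)
  · intro e he
    rcases hcov (e 0, e 1) (Finset.mem_image_of_mem _ he) with h | h
    · exact ⟨0, Finset.mem_union_left _ (Finset.mem_image.2 ⟨e 0, h, rfl⟩)⟩
    · exact ⟨1, Finset.mem_union_right _ (Finset.mem_image.2 ⟨e 1, h, rfl⟩)⟩
  · rw [Finset.card_union_of_disjoint hdisj, hMA, hMB, Finset.card_image_of_injective _ injA,
      Finset.card_image_of_injective _ injB, Finset.card_univ, Finset.card_univ,
      Fintype.card_coe, Fintype.card_coe]
    calc (A.image (fun a => ((0 : Fin 2), a)) ∪ B.image (fun b => ((1 : Fin 2), b))).card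
        ≤ (A.image (fun a => ((0 : Fin 2), a))).card
            + (B.image (fun b => ((1 : Fin 2), b))).card := Finset.card_union_le _ _
      _ ≤ A.card + B.card := add_le_add Finset.card_image_le Finset.card_image_le
      _ = (2 - 1) * (A.card + B.card) := by norm_num

/-- **Ryser's inequality when all but two parts have nested links, and a reduction.**

Encoding: the vertices of part `i : Fin r` are the pairs `(i, t)`, `t : ℕ`; an edge of an
`r`-partite `r`-uniform hypergraph is a function `e : Fin r → ℕ` (it contains the vertex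
`(i, e i)` of each part), and a hypergraph is a finite set `H` of edges.

* Part 1: if `r ≥ 2` and every part except the last two has nested links (lowering the
  vertex of an edge inside such a part gives an edge), then `H` has a vertex cover `C` and a
  matching `M` with `|C| ≤ (r - 1) |M|`.  For `r = 2` this is König's theorem.
* Part 2 (reduction): if Ryser's inequality holds for all `s`-partite hypergraphs
  (`s ≥ 2`), then it holds for all `r`-partite hypergraphs, `r ≥ s`, in which every part
  except the last `s` has nested links. -/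
theorem result :
    (∀ (r : ℕ), 2 ≤ r → ∀ H : Finset (Fin r → ℕ), NestedAllBut 2 H → RyserFor H) ∧
    (∀ (s : ℕ), 2 ≤ s → (∀ H : Finset (Fin s → ℕ), RyserFor H) →
      ∀ (r : ℕ), s ≤ r → ∀ H : Finset (Fin r → ℕ), NestedAllBut s H → RyserFor H) := by
  have red : ∀ (s : ℕ), 2 ≤ s → (∀ H : Finset (Fin s → ℕ), RyserFor H) →
      ∀ (r : ℕ), s ≤ r → ∀ H : Finset (Fin r → ℕ), NestedAllBut s H → RyserFor H := by
    intro s hs hbase r hsr H hH
    obtain ⟨d, rfl⟩ := Nat.exists_eq_add_of_le hsr
    exact reduction_aux s (by omega) hbase d H hH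
  exact ⟨fun r hr H hH => red 2 (by norm_num) konig r hr H hH, red⟩

end Vale.Agent.Results.P045.AllButTwoParts
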