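import Mathlib

namespace Vale.Agent.Results.P045.NestedLinks

open Finset

/-- **Ryser's conjecture for down-closed (nested-link) `r`-partite hypergraphs.**
The vertices of part `i` are the pairs `(i, t)`, `t : ℕ`; an edge is a function
`e : Fin r → ℕ`, containing the vertex `(i, e i)` of each part.  If the edge set `H` is
finite and down-closed (lowering any vertex of an edge inside its part gives an edge
again), then there are a vertex cover `C` and a matching `M ⊆ H` with
`|C| ≤ (r - 1) |M|`; hence `τ(H) ≤ (r - 1) ν(H)`. -/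
theorem result (r : ℕ) (hr : 2 ≤ r) (H : Finset (Fin r → ℕ))
    (hdown : ∀ e ∈ H, ∀ f : Fin r → ℕ, (∀ i, f i ≤ e i) → f ∈ H) :
    ∃ (C : Finset (Fin r × ℕ)) (M : Finset (Fin r → ℕ)),
      M ⊆ H ∧ (∀ e ∈ M, ∀ f ∈ M, e ≠ f → ∀ i, e i ≠ f i) ∧
      (∀ e ∈ H, ∃ i, (i, e i) ∈ C) ∧ C.card ≤ (r - 1) * M.card := by
  classical
  -- a maximum matching
  have hne : (H.powerset.filter
      (fun M : Finset (Fin r → ℕ) => ∀ e ∈ M, ∀ f ∈ M, e ≠ f → ∀ i, e i ≠ f i)).Nonempty :=
    ⟨∅, by simp⟩
  obtain ⟨M, hM, hmax⟩ := Finset.exists_max_image _ Finset.card hne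
  rw [Finset.mem_filter, Finset.mem_powerset] at hM
  obtain ⟨hMH, hMm⟩ := hM
  set k := M.card with hk
  have h0 : (0 : ℕ) < r := by omega
  have h1 : (1 : ℕ) < r := by omega
  set i0 : Fin r := ⟨0, h0⟩ with hi0
  set i1 : Fin r := ⟨1, h1⟩ with hi1
  have hi01 : i0 ≠ i1 := by
    intro h
    have := congrArg Fin.val h
    simp [hi0, hi1] at this
  set g : ℕ → (Fin r → ℕ) := fun j i => if i = i1 then k - j else j with hg
  -- some `g j` with `j ≤ k` is not an edge
  have hex : ∃ j, j ≤ k ∧ g j ∉ H := by
    by_contra hcon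
    push Not at hcon
    have hinj : Set.InjOn g (Finset.range (k + 1) : Set ℕ) := by
      intro a _ b _ hab
      have h := congrFun hab i0
      simpa [hg, hi01] using h
    have hcard : ((Finset.range (k + 1)).image g).card = k + 1 := by
      rw [Finset.card_image_of_injOn hinj, Finset.card_range]
    have hsub : (Finset.range (k + 1)).image g ⊆ H := by
      intro e he
      obtain ⟨a, ha, rfl⟩ := Finset.mem_image.1 he
      exact hcon a (by have := Finset.mem_range.1 ha; omega)
    have hmatch : ∀ e ∈ (Finset.range (k + 1)).image g,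
        ∀ f ∈ (Finset.range (k + 1)).image g, e ≠ f → ∀ i, e i ≠ f i := by
      intro e he f hf hef i
      obtain ⟨a, ha, rfl⟩ := Finset.mem_image.1 he
      obtain ⟨b, hb, rfl⟩ := Finset.mem_image.1 hf
      have hab : a ≠ b := fun h => hef (by rw [h])
      have ha' := Finset.mem_range.1 ha
      have hb' := Finset.mem_range.1 hb
      simp only [hg]
      split_ifs
      · omega
      · exact hab
    have hle := hmax _ (Finset.mem_filter.2 ⟨Finset.mem_powerset.2 hsub, hmatch⟩)
    rw [hcard] at hle
    omega
  obtain ⟨j, hjk, hj⟩ := hex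
  refine ⟨Finset.univ.biUnion
      (fun i : Fin r => (Finset.range (g j i)).image (fun t => (i, t))), M, hMH, hMm, ?_, ?_⟩
  · intro e he
    by_contra hcon
    push Not at hcon
    apply hj
    apply hdown e he
    intro i
    by_contra hlt
    push Not at hlt
    apply hcon i
    simp only [Finset.mem_biUnion, Finset.mem_univ, true_and, Finset.mem_image,
      Finset.mem_range, Prod.mk.injEq]
    exact ⟨i, e i, hlt, rfl, rfl⟩
  · have hsum : ∑ i : Fin r, g j i = (k - j) + (r - 1) * j := by
      rw [← Finset.add_sum_erase Finset.univ _ (Finset.mem_univ i1)]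
      have e1 : g j i1 = k - j := by simp [hg]
      have e2 : ∀ i ∈ Finset.univ.erase i1, g j i = j := by
        intro i hi
        have : i ≠ i1 := (Finset.mem_erase.1 hi).1
        simp [hg, this]
      rw [e1, Finset.sum_congr rfl e2, Finset.sum_const, Finset.card_erase_of_mem
        (Finset.mem_univ i1), Finset.card_univ, Fintype.card_fin, smul_eq_mul]
    calc (Finset.univ.biUnion
          (fun i : Fin r => (Finset.range (g j i)).image (fun t => (i, t)))).card
        ≤ ∑ i : Fin r, ((Finset.range (g j i)).image (fun t => (i, t))).card :=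
          Finset.card_biUnion_le
      _ ≤ ∑ i : Fin r, g j i := by
          apply Finset.sum_le_sum
          intro i _
          exact Finset.card_image_le.trans (by simp)
      _ = (k - j) + (r - 1) * j := hsum
      _ ≤ (r - 1) * k := by
          obtain ⟨d, hd⟩ : ∃ d, k = j + d := ⟨k - j, by omega⟩
          obtain ⟨s, hs⟩ : ∃ s, r - 1 = s + 1 := ⟨r - 2, by omega⟩
          rw [hs, hd]
          have : j + d - j = d := by omega
          rw [this]
          nlinarith [Nat.zero_le (s * d)]

end Vale.Agent.Results.P045.NestedLinks
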